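import Vale.Agent.Lib.P296.Pinching

/-!
P296 (Griffiths' positivity conjecture): a pointwise comparison of the two positivity
notions of the problem.  If a curvature tensor `c j k α β` on an `n`-dimensional base and a
rank `r` bundle is Griffiths pinched between `δ` and `M`, then its Nakano form is bounded
below by `m δ - (m - 1) M` with `m = min n r`; in particular it is Nakano positive as soon
as `m δ > (m - 1) M`.
-/

namespace Vale.Agent.Results.P296.GriffithsPinchingNakano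

open Finset

theorem result (n r : ℕ) (c : Fin n → Fin n → Fin r → Fin r → ℂ) (δ M : ℝ)
    (hG : ∀ (ξ : Fin n → ℂ) (v : Fin r → ℂ),
      δ * ((∑ j, ‖ξ j‖ ^ 2) * (∑ α, ‖v α‖ ^ 2)) ≤
        (∑ j, ∑ k, ∑ α, ∑ β,
          c j k α β * ξ j * (starRingEnd ℂ) (ξ k) * v α * (starRingEnd ℂ) (v β)).re ∧
      (∑ j, ∑ k, ∑ α, ∑ β,
          c j k α β * ξ j * (starRingEnd ℂ) (ξ k) * v α * (starRingEnd ℂ) (v β)).re ≤
        M * ((∑ j, ‖ξ j‖ ^ 2) * (∑ α, ‖v α‖ ^ 2)))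
    (u : Fin n → Fin r → ℂ) :
    (((min n r : ℕ) : ℝ) * δ - (((min n r : ℕ) : ℝ) - 1) * M) * (∑ j, ∑ α, ‖u j α‖ ^ 2) ≤
        (∑ j, ∑ k, ∑ α, ∑ β, c j k α β * u j α * (starRingEnd ℂ) (u k β)).re ∧
      ((((min n r : ℕ) : ℝ) - 1) * M < ((min n r : ℕ) : ℝ) * δ → u ≠ 0 →
        0 < (∑ j, ∑ k, ∑ α, ∑ β, c j k α β * u j α * (starRingEnd ℂ) (u k β)).re) := by
  have hbound : (((min n r : ℕ) : ℝ) * δ - (((min n r : ℕ) : ℝ) - 1) * M)
      * (∑ j, ∑ α, ‖u j α‖ ^ 2) ≤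
        (∑ j, ∑ k, ∑ α, ∑ β, c j k α β * u j α * (starRingEnd ℂ) (u k β)).re := by
    rcases le_total n r with h | h
    · rw [min_eq_left h]
      exact Vale.Agent.Lib.P296.nakano_bound_dim c δ M hG u
    · rw [min_eq_right h]
      exact Vale.Agent.Lib.P296.nakano_bound_rank c δ M hG u
  refine ⟨hbound, fun hpin hu => ?_⟩
  have hpos : 0 < ∑ j, ∑ α, ‖u j α‖ ^ 2 := by
    have hne : ∃ j α, u j α ≠ 0 := by
      by_contra hcon
      simp only [not_exists, not_not] at hcon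
      exact hu (funext fun j => funext fun α => hcon j α)
    obtain ⟨j, α, hjα⟩ := hne
    have h1 : 0 < ‖u j α‖ ^ 2 := by positivity
    have h2 : ‖u j α‖ ^ 2 ≤ ∑ α', ‖u j α'‖ ^ 2 :=
      Finset.single_le_sum (f := fun α' => ‖u j α'‖ ^ 2) (fun _ _ => by positivity)
        (Finset.mem_univ α)
    have h3 : ∑ α', ‖u j α'‖ ^ 2 ≤ ∑ j', ∑ α', ‖u j' α'‖ ^ 2 :=
      Finset.single_le_sum (f := fun j' => ∑ α', ‖u j' α'‖ ^ 2)
        (fun _ _ => Finset.sum_nonneg fun _ _ => by positivity) (Finset.mem_univ j)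
    linarith
  have : 0 < (((min n r : ℕ) : ℝ) * δ - (((min n r : ℕ) : ℝ) - 1) * M)
      * (∑ j, ∑ α, ‖u j α‖ ^ 2) := mul_pos (by linarith) hpos
  linarith

end Vale.Agent.Results.P296.GriffithsPinchingNakano
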