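import Vale.Agent.Lib.P296.Main

/-!
P296 (Griffiths' positivity conjecture): sharp pointwise comparison of Griffiths and Nakano
positivity.  First part: a curvature tensor whose Griffiths form is pinched between `δ` and
`M` has Nakano form at least `m δ - (m - 1) M` with `m = min n r`, hence is Nakano positive
when `m δ > (m - 1) M`.  Second part: for `n = r = m` the threshold is attained by a tensor
with `δ = 1 - 1/m`, `M = 1` whose Nakano form vanishes on a nonzero vector.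
-/

namespace Vale.Agent.Results.P296.GriffithsPinchingSharp

open Finset

theorem result :
    (∀ (n r : ℕ) (c : Fin n → Fin n → Fin r → Fin r → ℂ) (δ M : ℝ),
      (∀ (ξ : Fin n → ℂ) (v : Fin r → ℂ),
        δ * ((∑ j, ‖ξ j‖ ^ 2) * (∑ α, ‖v α‖ ^ 2)) ≤
          (∑ j, ∑ k, ∑ α, ∑ β,
            c j k α β * ξ j * (starRingEnd ℂ) (ξ k) * v α * (starRingEnd ℂ) (v β)).re ∧
        (∑ j, ∑ k, ∑ α, ∑ β,
            c j k α β * ξ j * (starRingEnd ℂ) (ξ k) * v α * (starRingEnd ℂ) (v β)).re ≤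
          M * ((∑ j, ‖ξ j‖ ^ 2) * (∑ α, ‖v α‖ ^ 2))) →
      ∀ u : Fin n → Fin r → ℂ,
        (((min n r : ℕ) : ℝ) * δ - (((min n r : ℕ) : ℝ) - 1) * M)
            * (∑ j, ∑ α, ‖u j α‖ ^ 2) ≤
          (∑ j, ∑ k, ∑ α, ∑ β, c j k α β * u j α * (starRingEnd ℂ) (u k β)).re ∧
        ((((min n r : ℕ) : ℝ) - 1) * M < ((min n r : ℕ) : ℝ) * δ → u ≠ 0 →
          0 < (∑ j, ∑ k, ∑ α, ∑ β, c j k α β * u j α * (starRingEnd ℂ) (u k β)).re)) ∧
    (∀ m : ℕ, 1 ≤ m →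
      ∃ c : Fin m → Fin m → Fin m → Fin m → ℂ,
        (∀ (ξ : Fin m → ℂ) (v : Fin m → ℂ),
          (1 - 1 / (m : ℝ)) * ((∑ j, ‖ξ j‖ ^ 2) * (∑ α, ‖v α‖ ^ 2)) ≤
            (∑ j, ∑ k, ∑ α, ∑ β,
              c j k α β * ξ j * (starRingEnd ℂ) (ξ k) * v α * (starRingEnd ℂ) (v β)).re ∧
          (∑ j, ∑ k, ∑ α, ∑ β,
              c j k α β * ξ j * (starRingEnd ℂ) (ξ k) * v α * (starRingEnd ℂ) (v β)).re ≤
            1 * ((∑ j, ‖ξ j‖ ^ 2) * (∑ α, ‖v α‖ ^ 2))) ∧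
        ∃ u : Fin m → Fin m → ℂ, u ≠ 0 ∧
          (∑ j, ∑ k, ∑ α, ∑ β, c j k α β * u j α * (starRingEnd ℂ) (u k β)).re = 0) :=
  ⟨fun n r c δ M hG u => Vale.Agent.Lib.P296.pinching_main n r c δ M hG u,
    fun m hm => Vale.Agent.Lib.P296.sharp_main m hm⟩

end Vale.Agent.Results.P296.GriffithsPinchingSharp
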